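import Vale.Agent.Lib.P061.Defs

namespace Vale.Agent.Lib.P061

open Classical Finset

/-- Working data for the proof. -/
structure Data (V E : Type*) [Fintype V] [Fintype E] (m : ℕ) where
  src : E → V
  tgt : E → V
  bag : Fin m → Finset V
  pos : E → Fin m
  hs : ∀ e, src e ∈ bag (pos e)
  ht : ∀ e, tgt e ∈ bag (pos e)
  cover : ∀ v, ∃ p, v ∈ bag p
  convex : ∀ v p q s, p ≤ q → q ≤ s → v ∈ bag p → v ∈ bag s → v ∈ bag q
  a : ℕ
  hcard : ∀ p, (bag p).card ≤ a
  k : ℕ
  hk : 0 < k
  hconn : ∀ S : Finset V, S.Nonempty → S ≠ Finset.univ → k ≤ (cut src tgt S).card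

variable {V E : Type*} [Fintype V] [Fintype E] {m : ℕ} (D : Data V E m)

/-- Adjacency through edges satisfying `P`. -/
def Adj (P : E → Prop) (x y : V) : Prop :=
  ∃ e, P e ∧ ((D.src e = x ∧ D.tgt e = y) ∨ (D.src e = y ∧ D.tgt e = x))

/-- Connection through edges satisfying `P`. -/
def Conn (P : E → Prop) : V → V → Prop := Relation.ReflTransGen (Adj D P)

variable {D}

lemma adj_symm {P : E → Prop} {x y : V} (h : Adj D P x y) : Adj D P y x := by
  obtain ⟨e, he, h⟩ := h
  exact ⟨e, he, h.symm⟩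

lemma Conn.refl (P : E → Prop) (x : V) : Conn D P x x := Relation.ReflTransGen.refl

lemma Conn.symm {P : E → Prop} {x y : V} (h : Conn D P x y) : Conn D P y x := by
  induction h with
  | refl => exact Conn.refl _ _
  | @tail b c _ hbc ih => exact Relation.ReflTransGen.head (adj_symm hbc) ih

lemma Conn.trans {P : E → Prop} {x y z : V} (h : Conn D P x y) (h' : Conn D P y z) :
    Conn D P x z := Relation.ReflTransGen.trans h h'

lemma Conn.mono {P Q : E → Prop} (hPQ : ∀ e, P e → Q e) {x y : V} (h : Conn D P x y) :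
    Conn D Q x y := by
  induction h with
  | refl => exact Conn.refl _ _
  | @tail b c _ hbc ih =>
    obtain ⟨e, he, hh⟩ := hbc
    exact Relation.ReflTransGen.tail ih ⟨e, hPQ e he, hh⟩

lemma conn_of_edge {P : E → Prop} {e : E} (he : P e) : Conn D P (D.src e) (D.tgt e) :=
  Relation.ReflTransGen.single ⟨e, he, Or.inl ⟨rfl, rfl⟩⟩

/-- Along a connection with endpoints on two sides of `S` some edge used crosses `S`. -/
lemma Conn.exists_cross {P : E → Prop} {x y : V} {S : Finset V} (h : Conn D P x y)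
    (hx : x ∈ S) (hy : y ∉ S) :
    ∃ g, P g ∧ g ∈ cut D.src D.tgt S ∧ Conn D P x (D.src g) := by
  induction h with
  | refl => exact absurd hx hy
  | @tail z w hxz hzw ih =>
    by_cases hz : z ∈ S
    · obtain ⟨e, he, h⟩ := hzw
      refine ⟨e, he, ?_, ?_⟩
      · rcases h with ⟨h1, h2⟩ | ⟨h1, h2⟩
        · simp only [cut, mem_filter, mem_univ, true_and]
          left
          rw [h1, h2]
          exact ⟨hz, hy⟩
        · simp only [cut, mem_filter, mem_univ, true_and]
          right
          rw [h1, h2]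
          exact ⟨hy, hz⟩
      · rcases h with ⟨h1, h2⟩ | ⟨h1, h2⟩
        · rw [h1]; exact hxz
        · rw [h1]; exact Conn.trans hxz (Relation.ReflTransGen.single ⟨e, he, Or.inr ⟨h1, h2⟩⟩)
    · exact ih hz

/-- Blocks: connected components of the edge set `T`. -/
noncomputable def blk (D : Data V E m) (T : Finset E) (x : V) : Finset V :=
  univ.filter fun y => Conn D (· ∈ T) x y

lemma mem_blk {T : Finset E} {x y : V} : y ∈ blk D T x ↔ Conn D (· ∈ T) x y := by
  simp [blk]

lemma blk_eq_iff {T : Finset E} {x y : V} : blk D T x = blk D T y ↔ Conn D (· ∈ T) x y := by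
  constructor
  · intro h
    have : y ∈ blk D T x := by rw [h]; exact mem_blk.2 (Conn.refl _ _)
    exact mem_blk.1 this
  · intro h
    ext z
    simp only [mem_blk]
    exact ⟨fun h' => h.symm.trans h', fun h' => h.trans h'⟩

lemma self_mem_blk {T : Finset E} (x : V) : x ∈ blk D T x := mem_blk.2 (Conn.refl _ _)

lemma blk_eq_of_mem {T : Finset E} {x y : V} (h : y ∈ blk D T x) : blk D T y = blk D T x :=
  (blk_eq_iff.2 (mem_blk.1 h)).symm

lemma conn_mono_subset {T T' : Finset E} (h : T ⊆ T') {x y : V} (hc : Conn D (· ∈ T) x y) :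
    Conn D (· ∈ T') x y := Conn.mono (fun _ he => h he) hc

/-- Blocks are convex with respect to the bag order. -/
lemma Conn.exists_alive_between {P : E → Prop} {u v : V} (h : Conn D P u v) :
    ∀ {p q s : Fin m}, u ∈ D.bag p → v ∈ D.bag s → p ≤ q → q ≤ s →
      ∃ w, Conn D P u w ∧ w ∈ D.bag q := by
  induction h using Relation.ReflTransGen.head_induction_on with
  | refl =>
    intro p q s hu hv hpq hqs
    exact ⟨v, Conn.refl _ _, D.convex v p q s hpq hqs hu hv⟩
  | @head a c hac hcv ih =>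
    intro p q s hu hv hpq hqs
    obtain ⟨e, he, hh⟩ := hac
    have hae : a ∈ D.bag (D.pos e) := by
      rcases hh with ⟨h1, _⟩ | ⟨_, h1⟩
      · rw [← h1]; exact D.hs e
      · rw [← h1]; exact D.ht e
    have hce : c ∈ D.bag (D.pos e) := by
      rcases hh with ⟨_, h1⟩ | ⟨h1, _⟩
      · rw [← h1]; exact D.ht e
      · rw [← h1]; exact D.hs e
    by_cases hq : q ≤ D.pos e
    · exact ⟨a, Conn.refl _ _, D.convex a p q (D.pos e) hpq hq hu hae⟩
    · have hq' : D.pos e ≤ q := le_of_lt (not_le.1 hq)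
      obtain ⟨w, hw, hwq⟩ := ih hce hv hq' hqs
      exact ⟨w, (Relation.ReflTransGen.single ⟨e, he, hh⟩ : Conn D P a c).trans hw, hwq⟩

/-- The set of positions where the vertex set `X` is alive. -/
noncomputable def span (D : Data V E m) (X : Finset V) : Finset (Fin m) :=
  univ.filter fun p => ∃ v ∈ X, v ∈ D.bag p

lemma mem_span {X : Finset V} {p : Fin m} : p ∈ span D X ↔ ∃ v ∈ X, v ∈ D.bag p := by
  simp [span]

/-- Convexity of the span of a block. -/
lemma blk_alive_between {T : Finset E} {x : V} {p q s : Fin m}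
    (hp : p ∈ span D (blk D T x)) (hs : s ∈ span D (blk D T x)) (hpq : p ≤ q) (hqs : q ≤ s) :
    q ∈ span D (blk D T x) := by
  obtain ⟨u, hu, hup⟩ := mem_span.1 hp
  obtain ⟨v, hv, hvs⟩ := mem_span.1 hs
  have huv : Conn D (· ∈ T) u v := (mem_blk.1 hu).symm.trans (mem_blk.1 hv)
  obtain ⟨w, hw, hwq⟩ := huv.exists_alive_between hup hvs hpq hqs
  exact mem_span.2 ⟨w, mem_blk.2 ((mem_blk.1 hu).trans hw), hwq⟩

/-- Directed bundle of edges from block `X` to block `Y`. -/
noncomputable def bundle (D : Data V E m) (T : Finset E) (X Y : Finset V) : Finset E :=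
  univ.filter fun h => blk D T (D.src h) = X ∧ blk D T (D.tgt h) = Y

lemma mem_bundle {T : Finset E} {X Y : Finset V} {h : E} :
    h ∈ bundle D T X Y ↔ blk D T (D.src h) = X ∧ blk D T (D.tgt h) = Y := by
  simp [bundle]

/-- Connection through edges of `T` with positions in `J`. -/
def inJ (D : Data V E m) (T : Finset E) (J : Finset (Fin m)) : E → Prop :=
  fun e => e ∈ T ∧ D.pos e ∈ J

lemma Conn.to_T {T : Finset E} {J : Finset (Fin m)} {x y : V} (h : Conn D (inJ D T J) x y) :
    Conn D (· ∈ T) x y := Conn.mono (fun _ he => he.1) h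

/-- Every vertex `J`-connected to a vertex alive in `J` is alive in `J`. -/
lemma alive_in_of_connJ {T : Finset E} {J : Finset (Fin m)} {x w : V} {t : Fin m} (ht : t ∈ J)
    (hx : x ∈ D.bag t) (h : Conn D (inJ D T J) x w) : ∃ t' ∈ J, w ∈ D.bag t' := by
  induction h with
  | refl => exact ⟨t, ht, hx⟩
  | @tail z w' _ hzw _ =>
    obtain ⟨e, he, hh⟩ := hzw
    refine ⟨D.pos e, he.2, ?_⟩
    rcases hh with ⟨_, h2⟩ | ⟨h2, _⟩
    · rw [← h2]; exact D.ht e
    · rw [← h2]; exact D.hs e

/-- Main strand lemma: a vertex alive in `J = [α, β]` is `J`-connected to a bag vertex of an end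
of `J`, or to its whole `T`-component. -/
lemma strand_lemma {T : Finset E} {α β : Fin m} {x z : V} {t : Fin m} (hαt : α ≤ t) (htβ : t ≤ β)
    (hx : x ∈ D.bag t) (h : Conn D (· ∈ T) x z) :
    Conn D (inJ D T (Finset.Icc α β)) x z ∨
      ∃ w, (w ∈ D.bag α ∨ w ∈ D.bag β) ∧ Conn D (inJ D T (Finset.Icc α β)) x w := by
  induction h with
  | refl => exact Or.inl (Conn.refl _ _)
  | @tail y z _ hyz ih =>
    rcases ih with ih | ih
    · obtain ⟨e, he, hh⟩ := hyz
      by_cases hpos : α ≤ D.pos e ∧ D.pos e ≤ β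
      · left
        refine Relation.ReflTransGen.tail ih ⟨e, ⟨he, ?_⟩, hh⟩
        exact Finset.mem_Icc.2 hpos
      · right
        have hye : y ∈ D.bag (D.pos e) := by
          rcases hh with ⟨h1, _⟩ | ⟨_, h1⟩
          · rw [← h1]; exact D.hs e
          · rw [← h1]; exact D.ht e
        obtain ⟨t', ht', hyt'⟩ :=
          alive_in_of_connJ (Finset.mem_Icc.2 ⟨hαt, htβ⟩) hx ih
        obtain ⟨h1, h2⟩ := Finset.mem_Icc.1 ht'
        refine ⟨y, ?_, ih⟩
        by_cases hlt : α ≤ D.pos e
        · have hgt : β < D.pos e := by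
            by_contra hcon
            exact hpos ⟨hlt, not_lt.1 hcon⟩
          right
          exact D.convex y t' β (D.pos e) h2 (le_of_lt hgt) hyt' hye
        · left
          exact D.convex y (D.pos e) α t' (le_of_lt (not_le.1 hlt)) h1 hye hyt'
    · exact Or.inr ih

end Vale.Agent.Lib.P061
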