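import Mathlib

/-!
Definitions used in the statement of the P061 hand-ins.
A finite multigraph is given by two maps `src tgt : E → V`, where `E` is the finite type of edge copies.
-/

namespace Vale.Agent.Lib.P061

open Classical in
/-- The cut `δ(S)`: all edge copies with exactly one endpoint in `S`. -/
noncomputable def cut {V E : Type*} [Fintype E] (src tgt : E → V) (S : Finset V) : Finset E :=
  Finset.univ.filter fun e => (src e ∈ S ∧ tgt e ∉ S) ∨ (src e ∉ S ∧ tgt e ∈ S)

/-- `k`-edge-connected: every cut of a nonempty proper vertex subset has at least `k` edge copies. -/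
def IsKEdgeConnected {V E : Type*} [Fintype V] [Fintype E] (src tgt : E → V) (k : ℕ) : Prop :=
  ∀ S : Finset V, S.Nonempty → S ≠ Finset.univ → k ≤ (cut src tgt S).card

/-- A spanning tree: a set of `|V| - 1` edge copies that meets every cut (so it is connected
and spanning). -/
def IsSpanningTree {V E : Type*} [Fintype V] [Fintype E] (src tgt : E → V) (T : Finset E) : Prop :=
  T.card + 1 = Fintype.card V ∧
    ∀ S : Finset V, S.Nonempty → S ≠ Finset.univ → ∃ e ∈ T, e ∈ cut src tgt S

/-- A path decomposition of width at most `w`, in the textbook sense: a sequence of bags covering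
all vertices and all edges, such that the bags containing any fixed vertex are consecutive, and
every bag has at most `w + 1` vertices. -/
def IsPathDecomposition {V E : Type*} (src tgt : E → V) {m : ℕ} (bag : Fin m → Finset V)
    (w : ℕ) : Prop :=
  (∀ v, ∃ p, v ∈ bag p) ∧
    (∀ e, ∃ p, src e ∈ bag p ∧ tgt e ∈ bag p) ∧
      (∀ v p q s, p ≤ q → q ≤ s → v ∈ bag p → v ∈ bag s → v ∈ bag q) ∧
        ∀ p, (bag p).card ≤ w + 1

end Vale.Agent.Lib.P061
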