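import Vale.Agent.Lib.P061.Defs

namespace Vale.Agent.Lib.P061

open Classical Finset

variable {V E : Type*} [Fintype V] [Nonempty V] [Fintype E]

/-- Every edge set meeting all cuts contains a spanning tree. -/
lemma exists_spanning_subtree (src tgt : E → V) (T₀ : Finset E)
    (h : ∀ S : Finset V, S.Nonempty → S ≠ univ → ∃ e ∈ T₀, e ∈ cut src tgt S) :
    ∃ T ⊆ T₀, IsSpanningTree src tgt T := by
  set G : SimpleGraph V := SimpleGraph.fromRel (fun x y => ∃ e ∈ T₀, src e = x ∧ tgt e = y) with hG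
  have hreach : ∀ x y, G.Reachable x y := by
    intro x
    set S : Finset V := univ.filter (fun y => G.Reachable x y) with hS
    have hxS : x ∈ S := mem_filter.2 ⟨mem_univ _, SimpleGraph.Reachable.refl x⟩
    by_contra hcon
    push Not at hcon
    obtain ⟨y, hy⟩ := hcon
    have hyS : y ∉ S := fun hy' => hy (mem_filter.1 hy').2
    have hne : S ≠ univ := fun hu => hyS (by rw [hu]; exact mem_univ _)
    obtain ⟨e, he, hec⟩ := h S ⟨x, hxS⟩ hne
    simp only [cut, mem_filter, mem_univ, true_and] at hec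
    have hadj : ∀ a b, a ∈ S → b ∉ S → (∃ e ∈ T₀, (src e = a ∧ tgt e = b) ∨ (src e = b ∧ tgt e = a)) →
        False := by
      intro a b ha hb ⟨e, he, hh⟩
      have hab : a ≠ b := fun hc => hb (hc ▸ ha)
      have hAdj : G.Adj a b := by
        rw [hG, SimpleGraph.fromRel_adj]
        refine ⟨hab, ?_⟩
        rcases hh with hh | hh
        · exact Or.inl ⟨e, he, hh⟩
        · exact Or.inr ⟨e, he, hh⟩
      exact hb (mem_filter.2 ⟨mem_univ _, (mem_filter.1 ha).2.trans hAdj.reachable⟩)
    rcases hec with ⟨h1, h2⟩ | ⟨h1, h2⟩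
    · exact hadj _ _ h1 h2 ⟨e, he, Or.inl ⟨rfl, rfl⟩⟩
    · exact hadj _ _ h2 h1 ⟨e, he, Or.inr ⟨rfl, rfl⟩⟩
  have hconn : G.Connected := by
    rw [SimpleGraph.connected_iff]
    exact ⟨hreach, inferInstance⟩
  obtain ⟨H, hle, hH⟩ := hconn.exists_isTree_le
  have hcard := hH.card_edgeFinset
  have hedge : ∀ s ∈ H.edgeFinset, ∃ e, e ∈ T₀ ∧ s(src e, tgt e) = s := by
    intro s hs
    induction s using Sym2.ind with
    | _ a b =>
      have hab : H.Adj a b := by simpa using hs
      have hab' := hle hab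
      rw [hG, SimpleGraph.fromRel_adj] at hab'
      rcases hab'.2 with ⟨e, he, h1, h2⟩ | ⟨e, he, h1, h2⟩
      · exact ⟨e, he, by rw [h1, h2]⟩
      · exact ⟨e, he, by rw [h1, h2]; exact Sym2.eq_swap⟩
  have hnE : Nonempty E ∨ H.edgeFinset = ∅ := by
    rcases H.edgeFinset.eq_empty_or_nonempty with h0 | ⟨s, hs⟩
    · exact Or.inr h0
    · obtain ⟨e, _⟩ := hedge s hs
      exact Or.inl ⟨e⟩
  rcases hnE with hnE | h0
  · obtain ⟨φ, hφ⟩ : ∃ φ : Sym2 V → E, ∀ s ∈ H.edgeFinset, φ s ∈ T₀ ∧ s(src (φ s), tgt (φ s)) = s := by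
      choose! φ hφ using hedge
      exact ⟨φ, hφ⟩
    refine ⟨H.edgeFinset.image φ, ?_, ?_, ?_⟩
    · intro e he
      obtain ⟨s, hs, rfl⟩ := mem_image.1 he
      exact (hφ s hs).1
    · rw [Finset.card_image_of_injOn]
      · exact hcard
      · intro s hs s' hs' heq
        have h1 := (hφ s hs).2
        have h2 := (hφ s' hs').2
        rw [← h1, ← h2]
        rw [heq]
    · intro S hSne hSu
      obtain ⟨x, hx⟩ := hSne
      obtain ⟨y, hy⟩ : ∃ y, y ∉ S := by
        by_contra hcon
        push Not at hcon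
        exact hSu (eq_univ_iff_forall.2 hcon)
      obtain ⟨w⟩ := hH.connected.preconnected x y
      have hwalk : ∀ {a b : V}, H.Walk a b → a ∈ S → b ∉ S →
          ∃ c d, H.Adj c d ∧ c ∈ S ∧ d ∉ S := by
        intro a b w
        induction w with
        | nil => intro h1 h2; exact absurd h1 h2
        | @cons u v z huv _ ih =>
          intro h1 h2
          by_cases hv : v ∈ S
          · exact ih hv h2
          · exact ⟨u, v, huv, h1, hv⟩
      obtain ⟨c, d, hcd, hc, hd⟩ := hwalk w hx hy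
      have hs : s(c, d) ∈ H.edgeFinset := by simpa using hcd
      refine ⟨φ s(c, d), mem_image_of_mem _ hs, ?_⟩
      have h3 := (hφ _ hs).2
      simp only [cut, mem_filter, mem_univ, true_and]
      rcases Sym2.eq_iff.1 h3 with ⟨h4, h5⟩ | ⟨h4, h5⟩
      · left; rw [h4, h5]; exact ⟨hc, hd⟩
      · right; rw [h4, h5]; exact ⟨hd, hc⟩
  · refine ⟨∅, empty_subset _, ?_, ?_⟩
    · rw [h0] at hcard
      simpa using hcard
    · intro S hSne hSu
      exfalso
      obtain ⟨x, hx⟩ := hSne
      obtain ⟨y, hy⟩ : ∃ y, y ∉ S := by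
        by_contra hcon
        push Not at hcon
        exact hSu (eq_univ_iff_forall.2 hcon)
      have hxy : x ≠ y := fun hc => hy (hc ▸ hx)
      obtain ⟨w⟩ := hH.connected.preconnected x y
      have hnil : ∀ {a b : V}, H.Walk a b → a ≠ b → ∃ c d, H.Adj c d := by
        intro a b w
        induction w with
        | nil => intro h1; exact absurd rfl h1
        | @cons u v z huv _ _ => intro _; exact ⟨u, v, huv⟩
      obtain ⟨c, d, hcd⟩ := hnil w hxy
      have hs : s(c, d) ∈ H.edgeFinset := by simpa using hcd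
      rw [h0] at hs
      simp at hs

end Vale.Agent.Lib.P061
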