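import Vale.Agent.Lib.P061.Pathwidth
import Vale.Agent.Lib.P061.SpanTree

namespace Vale.Agent.Lib.P061

open Classical Finset

/-- The main theorem: strong thin trees for bounded pathwidth. -/
theorem thin_tree_of_pathwidth {V E : Type*} [Fintype V] [Nonempty V] [Fintype E]
    (src tgt : E → V) (k : ℕ) (hk : 0 < k) (hconn : IsKEdgeConnected src tgt k)
    {m : ℕ} (bag : Fin m → Finset V) (w : ℕ) (hbag : IsPathDecomposition src tgt bag w) :
    ∃ T : Finset E, IsSpanningTree src tgt T ∧
      ∀ S : Finset V, S.Nonempty → S ≠ Finset.univ →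
        k * (T ∩ cut src tgt S).card ≤
          64 * (w + 1) ^ 5 * (2 * w + 3) ^ w * (cut src tgt S).card := by
  obtain ⟨h1, h2, h3, h4⟩ := hbag
  choose pos hpos using h2
  let D : Data V E m :=
    { src := src, tgt := tgt, bag := bag, pos := pos
      hs := fun e => (hpos e).1, ht := fun e => (hpos e).2
      cover := h1, convex := h3, a := w + 1, hcard := h4
      k := k, hk := hk, hconn := hconn }
  obtain ⟨T, hT, hsp⟩ := exists_spanning_subtree src tgt (seqT D (D.a - 1))
    (fun S h1 h2 => final_cross (D := D) h1 h2)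
  refine ⟨T, hsp, ?_⟩
  intro S _ _
  have hb := final_bound (D := D) S
  have hsub : (T ∩ cut src tgt S).card ≤ (seqT D (D.a - 1) ∩ cut src tgt S).card :=
    card_le_card (inter_subset_inter_right hT)
  have h5 : 1 + 2 * D.a = 2 * w + 3 := by show 1 + 2 * (w + 1) = 2 * w + 3; ring
  have h6 : D.a - 1 = w := by show w + 1 - 1 = w; omega
  calc k * (T ∩ cut src tgt S).card
      ≤ k * (seqT D (D.a - 1) ∩ cut src tgt S).card := Nat.mul_le_mul_left _ hsub
    _ ≤ 64 * D.a ^ 5 * (1 + 2 * D.a) ^ (D.a - 1) * (cut src tgt S).card := hb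
    _ = _ := by rw [h5, h6]

end Vale.Agent.Lib.P061
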