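import Vale.Agent.Lib.P061.Step

namespace Vale.Agent.Lib.P061

open Classical Finset

variable {V E : Type*} [Fintype V] [Fintype E] {m : ℕ} {D : Data V E m}

lemma blk_nonempty {T : Finset E} (x : V) : (blk D T x).Nonempty := ⟨x, self_mem_blk x⟩

lemma mem_span_blk_iff {T : Finset E} {x : V} {p : Fin m} :
    p ∈ span D (blk D T x) ↔ ∃ v ∈ blk D T x, v ∈ D.bag p := mem_span

/-- A minimal-span block has a strong neighbour. -/
lemma strong_neighbor (T : Finset E) (R : Finset (Fin m)) (x₀ : V)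
    (hx₀ : span D (blk D T x₀) ⊆ R) (hnt : ∃ x y, ¬ Conn D (· ∈ T) x y) :
    ∃ u v, blk D T u ≠ blk D T v ∧
      D.k ≤ 4 * D.a * (bundle D T (blk D T u) (blk D T v)).card ∧
      (span D (blk D T u) ⊆ R ∨ span D (blk D T v) ⊆ R) := by
  set F := (univ : Finset V).filter (fun x => span D (blk D T x) ⊆ R) with hF
  have hFne : F.Nonempty := ⟨x₀, mem_filter.2 ⟨mem_univ _, hx₀⟩⟩
  obtain ⟨xs, hxsF, hmin⟩ := Finset.exists_min_image F (fun x => (span D (blk D T x)).card) hFne
  have hxsR : span D (blk D T xs) ⊆ R := (mem_filter.1 hxsF).2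
  set X := blk D T xs with hX
  have hXne : X ≠ univ := by
    intro hu
    obtain ⟨x, y, hxy⟩ := hnt
    apply hxy
    have hx : x ∈ X := by rw [hu]; exact mem_univ _
    have hy : y ∈ X := by rw [hu]; exact mem_univ _
    exact (mem_blk.1 hx).symm.trans (mem_blk.1 hy)
  have hcutk : D.k ≤ (cut D.src D.tgt X).card :=
    D.hconn X (blk_nonempty xs) hXne
  have hspanne : (span D X).Nonempty := by
    obtain ⟨p, hp⟩ := D.cover xs
    exact ⟨p, mem_span.2 ⟨xs, self_mem_blk xs, hp⟩⟩
  set lo := (span D X).min' hspanne with hlo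
  set hi := (span D X).max' hspanne with hhi
  have hlomem : lo ∈ span D X := Finset.min'_mem _ _
  have himem : hi ∈ span D X := Finset.max'_mem _ _
  set P := (D.bag lo ∪ D.bag hi).image (blk D T) with hP
  have hPc : P.card ≤ 2 * D.a := by
    calc P.card ≤ (D.bag lo ∪ D.bag hi).card := card_image_le
      _ ≤ (D.bag lo).card + (D.bag hi).card := card_union_le _ _
      _ ≤ D.a + D.a := add_le_add (D.hcard _) (D.hcard _)
      _ = 2 * D.a := by ring
  -- neighbouring blocks are alive at an end of the span of `X`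
  have hkey : ∀ v t, t ∈ span D X → t ∈ span D (blk D T v) → blk D T v ∈ P := by
    intro v t ht htv
    by_contra hnot
    have hnlo : lo ∉ span D (blk D T v) := by
      intro hmem
      obtain ⟨z, hz, hzb⟩ := mem_span.1 hmem
      exact hnot (mem_image.2 ⟨z, mem_union_left _ hzb, blk_eq_of_mem hz⟩)
    have hnhi : hi ∉ span D (blk D T v) := by
      intro hmem
      obtain ⟨z, hz, hzb⟩ := mem_span.1 hmem
      exact hnot (mem_image.2 ⟨z, mem_union_right _ hzb, blk_eq_of_mem hz⟩)
    have hlt : lo ≤ t := Finset.min'_le _ _ ht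
    have hgt : t ≤ hi := Finset.le_max' _ _ ht
    have hsub : span D (blk D T v) ⊆ span D X := by
      intro p' hp'
      have h1 : lo ≤ p' := by
        by_contra hcon
        exact hnlo (blk_alive_between hp' htv (le_of_lt (not_le.1 hcon)) hlt)
      have h2 : p' ≤ hi := by
        by_contra hcon
        exact hnhi (blk_alive_between htv hp' hgt (le_of_lt (not_le.1 hcon)))
      exact blk_alive_between hlomem himem h1 h2
    have hvF : v ∈ F := mem_filter.2 ⟨mem_univ _, hsub.trans hxsR⟩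
    have hlt' : (span D (blk D T v)).card < (span D X).card :=
      Finset.card_lt_card ⟨hsub, fun hcon => hnlo (hcon hlomem)⟩
    have hm : (span D X).card ≤ (span D (blk D T v)).card := hmin v hvF
    omega
  set τ : E → Finset V × Finset V := fun h => (blk D T (D.src h), blk D T (D.tgt h)) with hτ
  set Q := ({X} ×ˢ P) ∪ (P ×ˢ {X}) with hQ
  have hQc : Q.card ≤ 4 * D.a := by
    calc Q.card ≤ ({X} ×ˢ P).card + (P ×ˢ {X}).card := card_union_le _ _
      _ = P.card + P.card := by simp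
      _ ≤ 4 * D.a := by omega
  have hmemX : ∀ z, z ∈ X ↔ blk D T z = X := by
    intro z
    constructor
    · exact blk_eq_of_mem
    · intro h
      rw [← h]
      exact self_mem_blk z
  have hcross : ∀ h ∈ cut D.src D.tgt X,
      τ h ∈ Q ∧ ((blk D T (D.src h) = X ∧ blk D T (D.tgt h) ≠ X) ∨
        (blk D T (D.src h) ≠ X ∧ blk D T (D.tgt h) = X)) := by
    intro h hh
    simp only [cut, mem_filter, mem_univ, true_and] at hh
    have h1 : D.pos h ∈ span D (blk D T (D.src h)) :=
      mem_span.2 ⟨_, self_mem_blk _, D.hs h⟩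
    have h2 : D.pos h ∈ span D (blk D T (D.tgt h)) :=
      mem_span.2 ⟨_, self_mem_blk _, D.ht h⟩
    rcases hh with ⟨ha, hb⟩ | ⟨ha, hb⟩
    · have ha' := (hmemX _).1 ha
      have hb' : blk D T (D.tgt h) ≠ X := fun hc => hb ((hmemX _).2 hc)
      refine ⟨mem_union_left _ (mem_product.2 ⟨mem_singleton.2 ha', ?_⟩), Or.inl ⟨ha', hb'⟩⟩
      rw [ha'] at h1
      exact hkey _ _ h1 h2
    · have hb' := (hmemX _).1 hb
      have ha' : blk D T (D.src h) ≠ X := fun hc => ha ((hmemX _).2 hc)
      refine ⟨mem_union_right _ (mem_product.2 ⟨?_, mem_singleton.2 hb'⟩), Or.inr ⟨ha', hb'⟩⟩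
      rw [hb'] at h2
      exact hkey _ _ h2 h1
  have hcutpos : (cut D.src D.tgt X).Nonempty := by
    rw [← Finset.card_pos]
    have := D.hk
    omega
  obtain ⟨h₀, hh₀⟩ := hcutpos
  have hQne : Q.Nonempty := ⟨τ h₀, (hcross h₀ hh₀).1⟩
  set C := cut D.src D.tgt X with hC
  obtain ⟨q, hq, hqmax⟩ := Finset.exists_max_image Q (fun b => (C.filter fun h => τ h = b).card) hQne
  have hcard : C.card ≤ Q.card * (C.filter fun h => τ h = q).card := by
    rw [Finset.card_eq_sum_card_fiberwise (fun h hh => (hcross h hh).1)]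
    calc ∑ b ∈ Q, (C.filter fun h => τ h = b).card
        ≤ ∑ _b ∈ Q, (C.filter fun h => τ h = q).card := Finset.sum_le_sum hqmax
      _ = _ := by simp
  have hfpos : (C.filter fun h => τ h = q).Nonempty := by
    rw [← Finset.card_pos]
    by_contra hcon
    have h0 : (C.filter fun h => τ h = q).card = 0 := by omega
    rw [h0, Nat.mul_zero] at hcard
    have := D.hk
    omega
  obtain ⟨h, hh⟩ := hfpos
  obtain ⟨hhC, hτq⟩ := mem_filter.1 hh
  refine ⟨D.src h, D.tgt h, ?_, ?_, ?_⟩
  · rcases (hcross h hhC).2 with ⟨h1, h2⟩ | ⟨h1, h2⟩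
    · rw [h1]; exact fun hc => h2 hc.symm
    · rw [h2]; exact h1
  · have hsub : (C.filter fun h => τ h = q) ⊆
        bundle D T (blk D T (D.src h)) (blk D T (D.tgt h)) := by
      intro h' hh'
      obtain ⟨_, hq'⟩ := mem_filter.1 hh'
      have h3 : τ h' = τ h := hq'.trans hτq.symm
      exact mem_bundle.2 ⟨congrArg Prod.fst h3, congrArg Prod.snd h3⟩
    calc D.k ≤ C.card := hcutk
      _ ≤ Q.card * (C.filter fun h => τ h = q).card := hcard
      _ ≤ 4 * D.a * (bundle D T (blk D T (D.src h)) (blk D T (D.tgt h))).card :=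
        Nat.mul_le_mul hQc (card_le_card hsub)
  · rcases (hcross h hhC).2 with ⟨h1, _⟩ | ⟨_, h2⟩
    · left; rw [h1]; exact hxsR
    · right; rw [h2]; exact hxsR

/-- If `X, Y` are blocks at the next level with a strong bundle, some block of the current level
has its span nested in the overlap of the spans of `X` and `Y`. -/
lemma nested_old {T T' : Finset E}
    (hheavy : ∀ p, Heavy D T p → ∀ u ∈ p.1, ∀ v ∈ p.2, Conn D (· ∈ T') u v)
    (hTT' : T ⊆ T') (u v : V) (huv : blk D T' u ≠ blk D T' v)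
    (hstrong : D.k ≤ 4 * D.a * (bundle D T' (blk D T' u) (blk D T' v)).card) :
    ∃ x, span D (blk D T x) ⊆ span D (blk D T' u) ∩ span D (blk D T' v) := by
  by_contra hcon
  push Not at hcon
  set X := blk D T' u with hX
  set Y := blk D T' v with hY
  set b := bundle D T' X Y with hb
  have hbpos : 0 < b.card := by
    by_contra h0
    have h0' : b.card = 0 := by omega
    rw [h0'] at hstrong
    have := D.hk
    omega
  obtain ⟨h₀, hh₀⟩ := Finset.card_pos.1 hbpos
  set R' := span D X ∩ span D Y with hR'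
  have hposR : ∀ h ∈ b, D.pos h ∈ R' := by
    intro h hh
    obtain ⟨h1, h2⟩ := mem_bundle.1 hh
    have h3 : D.pos h ∈ span D (blk D T' (D.src h)) := mem_span.2 ⟨_, self_mem_blk _, D.hs h⟩
    have h4 : D.pos h ∈ span D (blk D T' (D.tgt h)) := mem_span.2 ⟨_, self_mem_blk _, D.ht h⟩
    rw [h1] at h3
    rw [h2] at h4
    exact mem_inter.2 ⟨h3, h4⟩
  have hR'ne : R'.Nonempty := ⟨_, hposR h₀ hh₀⟩
  set α := R'.min' hR'ne with hα
  set β := R'.max' hR'ne with hβ
  have hαmem : α ∈ R' := Finset.min'_mem _ _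
  have hβmem : β ∈ R' := Finset.max'_mem _ _
  have hconvex : ∀ p, α ≤ p → p ≤ β → p ∈ R' := by
    intro p h1 h2
    refine mem_inter.2 ⟨?_, ?_⟩
    · exact blk_alive_between (mem_inter.1 hαmem).1 (mem_inter.1 hβmem).1 h1 h2
    · exact blk_alive_between (mem_inter.1 hαmem).2 (mem_inter.1 hβmem).2 h1 h2
  set P := (D.bag α ∪ D.bag β).image (blk D T) with hP
  have hPc : P.card ≤ 2 * D.a := by
    calc P.card ≤ (D.bag α ∪ D.bag β).card := card_image_le
      _ ≤ (D.bag α).card + (D.bag β).card := card_union_le _ _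
      _ ≤ D.a + D.a := add_le_add (D.hcard _) (D.hcard _)
      _ = 2 * D.a := by ring
  have hblkP : ∀ w t, t ∈ R' → t ∈ span D (blk D T w) → blk D T w ∈ P := by
    intro w t ht htw
    obtain ⟨p', hp', hp'R⟩ := Finset.not_subset.1 (hcon w)
    have hαt : α ≤ t := Finset.min'_le _ _ ht
    have htβ : t ≤ β := Finset.le_max' _ _ ht
    by_cases h1 : α ≤ p'
    · have h2 : ¬ p' ≤ β := fun h2 => hp'R (hconvex p' h1 h2)
      have h3 : β ∈ span D (blk D T w) :=
        blk_alive_between htw hp' htβ (le_of_lt (not_le.1 h2))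
      obtain ⟨z, hz, hzb⟩ := mem_span.1 h3
      exact mem_image.2 ⟨z, mem_union_right _ hzb, blk_eq_of_mem hz⟩
    · have h3 : α ∈ span D (blk D T w) :=
        blk_alive_between hp' htw (le_of_lt (not_le.1 h1)) hαt
      obtain ⟨z, hz, hzb⟩ := mem_span.1 h3
      exact mem_image.2 ⟨z, mem_union_left _ hzb, blk_eq_of_mem hz⟩
  set τ : E → Finset V × Finset V := fun h => (blk D T (D.src h), blk D T (D.tgt h)) with hτ
  have hmaps : ∀ h ∈ b, τ h ∈ P ×ˢ P := by
    intro h hh
    refine mem_product.2 ⟨?_, ?_⟩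
    · exact hblkP _ _ (hposR h hh) (mem_span.2 ⟨_, self_mem_blk _, D.hs h⟩)
    · exact hblkP _ _ (hposR h hh) (mem_span.2 ⟨_, self_mem_blk _, D.ht h⟩)
  have hconnh : ∀ h ∈ b, ¬ Conn D (· ∈ T') (D.src h) (D.tgt h) := by
    intro h hh hc
    obtain ⟨h1, h2⟩ := mem_bundle.1 hh
    exact huv (h1.symm.trans ((blk_eq_iff.2 hc).trans h2))
  have hlight : ∀ q ∈ b.image τ, 16 * D.a ^ 3 * (b.filter fun h => τ h = q).card ≤ D.k - 1 := by
    intro q hq
    obtain ⟨h, hh, rfl⟩ := mem_image.1 hq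
    have hne : (τ h).1 ≠ (τ h).2 := by
      intro heq
      apply hconnh h hh
      exact conn_mono_subset hTT' (blk_eq_iff.1 heq)
    have hnotheavy : ¬ Heavy D T (τ h) := by
      intro hheavyq
      exact hconnh h hh (hheavy _ hheavyq _ (self_mem_blk _) _ (self_mem_blk _))
    have hlt : 16 * D.a ^ 3 * (bundle D T (τ h).1 (τ h).2).card < D.k := by
      by_contra hge
      exact hnotheavy ⟨hne, not_lt.1 hge⟩
    have hsub : (b.filter fun h' => τ h' = τ h) ⊆ bundle D T (τ h).1 (τ h).2 := by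
      intro h' hh'
      obtain ⟨_, hq'⟩ := mem_filter.1 hh'
      exact mem_bundle.2 ⟨congrArg Prod.fst hq', congrArg Prod.snd hq'⟩
    have h5 : 16 * D.a ^ 3 * (b.filter fun h' => τ h' = τ h).card ≤
        16 * D.a ^ 3 * (bundle D T (τ h).1 (τ h).2).card :=
      Nat.mul_le_mul_left _ (card_le_card hsub)
    omega
  have hsum : 16 * D.a ^ 3 * b.card ≤ (b.image τ).card * (D.k - 1) := by
    rw [Finset.card_eq_sum_card_image τ b, Finset.mul_sum]
    calc ∑ q ∈ b.image τ, 16 * D.a ^ 3 * (b.filter fun h => τ h = q).card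
        ≤ ∑ _q ∈ b.image τ, (D.k - 1) := Finset.sum_le_sum hlight
      _ = _ := by simp
  have himage : (b.image τ).card ≤ 4 * D.a ^ 2 := by
    have h1 : (b.image τ).card ≤ (P ×ˢ P).card :=
      card_le_card (image_subset_iff.2 hmaps)
    rw [card_product] at h1
    calc (b.image τ).card ≤ P.card * P.card := h1
      _ ≤ (2 * D.a) * (2 * D.a) := Nat.mul_le_mul hPc hPc
      _ = 4 * D.a ^ 2 := by ring
  have hapos : 0 < D.a := by
    have h1 : 0 < (D.bag (D.pos h₀)).card := Finset.card_pos.2 ⟨_, D.hs h₀⟩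
    exact lt_of_lt_of_le h1 (D.hcard _)
  have hfinal : 4 * D.a ^ 2 * D.k ≤ 4 * D.a ^ 2 * (D.k - 1) := by
    calc 4 * D.a ^ 2 * D.k ≤ 4 * D.a ^ 2 * (4 * D.a * b.card) := Nat.mul_le_mul_left _ hstrong
      _ = 16 * D.a ^ 3 * b.card := by ring
      _ ≤ (b.image τ).card * (D.k - 1) := hsum
      _ ≤ 4 * D.a ^ 2 * (D.k - 1) := Nat.mul_le_mul_right _ himage
  have h4a : 0 < 4 * D.a ^ 2 := by positivity
  have := Nat.le_of_mul_le_mul_left hfinal h4a
  have := D.hk
  omega

/-- The number of blocks alive at a position drops when two of them are merged. -/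
lemma count_step {T T' : Finset E} (hTT' : T ⊆ T') {q : Fin m} {u v : V}
    (hu : u ∈ D.bag q) (hv : v ∈ D.bag q) (huv : blk D T u ≠ blk D T v)
    (hc : Conn D (· ∈ T') u v) :
    ((D.bag q).image (blk D T')).card + 1 ≤ ((D.bag q).image (blk D T)).card := by
  set g : Finset V → Finset V := fun Z =>
    if h : Z.Nonempty then blk D T' h.choose else ∅ with hg
  have hgblk : ∀ w, g (blk D T w) = blk D T' w := by
    intro w
    have hne : (blk D T w).Nonempty := blk_nonempty w
    simp only [hg, dif_pos hne]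
    have hch := hne.choose_spec
    exact blk_eq_iff.2 (conn_mono_subset hTT' (mem_blk.1 hch).symm)
  have himage : (D.bag q).image (blk D T') = ((D.bag q).image (blk D T)).image g := by
    rw [Finset.image_image]
    refine Finset.image_congr ?_
    intro w _
    exact (hgblk w).symm
  have hnotinj : ¬ Set.InjOn g ((D.bag q).image (blk D T)) := by
    intro hinj
    apply huv
    apply hinj
    · exact mem_coe.2 (mem_image_of_mem _ hu)
    · exact mem_coe.2 (mem_image_of_mem _ hv)
    · rw [hgblk, hgblk]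
      exact blk_eq_iff.2 hc
  rw [himage]
  have h1 := Finset.card_image_le (s := (D.bag q).image (blk D T)) (f := g)
  have h2 : (((D.bag q).image (blk D T)).image g).card ≠ ((D.bag q).image (blk D T)).card := by
    intro h
    exact hnotinj (Finset.card_image_iff.1 h)
  omega

/-- One chosen round. -/
noncomputable def stepT (D : Data V E m) (T : Finset E) : Finset E :=
  Classical.choose (exists_step (D := D) T)

lemma stepT_spec (T : Finset E) :
    T ⊆ stepT D T ∧ (∀ p, Heavy D T p → ∀ u ∈ p.1, ∀ v ∈ p.2, Conn D (· ∈ stepT D T) u v) ∧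
      ∀ S : Finset V, D.k * (stepT D T ∩ cut D.src D.tgt S).card ≤
        (1 + 2 * D.a) * D.k * (T ∩ cut D.src D.tgt S).card +
          64 * D.a ^ 5 * ((inSet D (stepT D T) \ inSet D T) ∩ cut D.src D.tgt S).card :=
  Classical.choose_spec (exists_step (D := D) T)

/-- The sequence of rounds. -/
noncomputable def seqT (D : Data V E m) : ℕ → Finset E
  | 0 => ∅
  | j + 1 => stepT D (seqT D j)

lemma heavy_of_strong {T : Finset E} {u v : V} (huv : blk D T u ≠ blk D T v)
    (hstrong : D.k ≤ 4 * D.a * (bundle D T (blk D T u) (blk D T v)).card) :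
    Heavy D T (blk D T u, blk D T v) := by
  refine ⟨huv, hstrong.trans ?_⟩
  refine Nat.mul_le_mul_right _ ?_
  rcases Nat.eq_zero_or_pos D.a with h0 | hpos
  · simp [h0]
  · have h1 : D.a ≤ D.a ^ 3 := Nat.le_self_pow (by norm_num) _
    omega

/-- The main counting along the levels. -/
lemma chain_lemma : ∀ j : ℕ, (∃ x y, ¬ Conn D (· ∈ seqT D j) x y) →
    ∀ R : Finset (Fin m), (∃ x, span D (blk D (seqT D j) x) ⊆ R) →
    ∃ q ∈ R, ∃ u v, u ∈ D.bag q ∧ v ∈ D.bag q ∧ blk D (seqT D j) u ≠ blk D (seqT D j) v ∧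
      Conn D (· ∈ seqT D (j + 1)) u v ∧
      j + ((D.bag q).image (blk D (seqT D j))).card ≤ (D.bag q).card := by
  intro j
  induction j with
  | zero =>
    intro hnt R hR
    obtain ⟨x₀, hx₀⟩ := hR
    obtain ⟨u, v, huv, hstrong, hspan⟩ := strong_neighbor (seqT D 0) R x₀ hx₀ hnt
    have hbpos : 0 < (bundle D (seqT D 0) (blk D (seqT D 0) u) (blk D (seqT D 0) v)).card := by
      by_contra h0
      have h0' : (bundle D (seqT D 0) (blk D (seqT D 0) u) (blk D (seqT D 0) v)).card = 0 := by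
        omega
      rw [h0'] at hstrong
      have := D.hk
      omega
    obtain ⟨h, hh⟩ := Finset.card_pos.1 hbpos
    obtain ⟨h1, h2⟩ := mem_bundle.1 hh
    have hqu : D.pos h ∈ span D (blk D (seqT D 0) u) := by
      rw [← h1]; exact mem_span.2 ⟨_, self_mem_blk _, D.hs h⟩
    have hqv : D.pos h ∈ span D (blk D (seqT D 0) v) := by
      rw [← h2]; exact mem_span.2 ⟨_, self_mem_blk _, D.ht h⟩
    refine ⟨D.pos h, ?_, D.src h, D.tgt h, D.hs h, D.ht h, ?_, ?_, ?_⟩
    · rcases hspan with hs | hs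
      · exact hs hqu
      · exact hs hqv
    · rw [h1, h2]; exact huv
    · have hH := heavy_of_strong huv hstrong
      refine (stepT_spec (D := D) (seqT D 0)).2.1 _ hH _ ?_ _ ?_
      · show D.src h ∈ blk D (seqT D 0) u
        rw [← h1]; exact self_mem_blk _
      · show D.tgt h ∈ blk D (seqT D 0) v
        rw [← h2]; exact self_mem_blk _
    · rw [Nat.zero_add]
      exact card_image_le
  | succ j ih =>
    intro hnt R hR
    obtain ⟨x₀, hx₀⟩ := hR
    obtain ⟨u₀, v₀, huv, hstrong, hspan⟩ := strong_neighbor (seqT D (j + 1)) R x₀ hx₀ hnt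
    have hsub : seqT D j ⊆ seqT D (j + 1) := (stepT_spec (D := D) (seqT D j)).1
    have hnt' : ∃ x y, ¬ Conn D (· ∈ seqT D j) x y := by
      obtain ⟨x, y, hxy⟩ := hnt
      exact ⟨x, y, fun hc => hxy (conn_mono_subset hsub hc)⟩
    have hnest : ∃ x, span D (blk D (seqT D j) x) ⊆
        span D (blk D (seqT D (j + 1)) u₀) ∩ span D (blk D (seqT D (j + 1)) v₀) :=
      nested_old (stepT_spec (D := D) (seqT D j)).2.1 hsub u₀ v₀ huv hstrong
    obtain ⟨x₁, hx₁⟩ := hnest
    obtain ⟨q, hq, u₁, v₁, hu₁, hv₁, hne, hconn₁, hcount⟩ := ih hnt' _ ⟨x₁, hx₁⟩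
    obtain ⟨hq1, hq2⟩ := mem_inter.1 hq
    obtain ⟨u, hu, hub⟩ := mem_span.1 hq1
    obtain ⟨v, hv, hvb⟩ := mem_span.1 hq2
    refine ⟨q, ?_, u, v, hub, hvb, ?_, ?_, ?_⟩
    · rcases hspan with hs | hs
      · exact hs hq1
      · exact hs hq2
    · rw [blk_eq_of_mem hu, blk_eq_of_mem hv]; exact huv
    · have hH := heavy_of_strong huv hstrong
      exact (stepT_spec (D := D) (seqT D (j + 1))).2.1 _ hH _ hu _ hv
    · have := count_step hsub hu₁ hv₁ hne hconn₁
      omega

/-- After `a - 1` rounds everything is connected. -/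
lemma total_conn (x y : V) : Conn D (· ∈ seqT D (D.a - 1)) x y := by
  by_contra hxy
  obtain ⟨q, _, u, v, hu, hv, hne, _, hcount⟩ :=
    chain_lemma (D := D) (D.a - 1) ⟨x, y, hxy⟩ univ ⟨x, subset_univ _⟩
  have h2 : 1 < ((D.bag q).image (blk D (seqT D (D.a - 1)))).card :=
    Finset.one_lt_card.2 ⟨_, mem_image_of_mem _ hu, _, mem_image_of_mem _ hv, hne⟩
  have h3 := D.hcard q
  omega

/-- The weighted inequality along the levels. -/
lemma seq_bound (S : Finset V) : ∀ j : ℕ, D.k * (seqT D j ∩ cut D.src D.tgt S).card ≤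
    64 * D.a ^ 5 * (1 + 2 * D.a) ^ j * (inSet D (seqT D j) ∩ cut D.src D.tgt S).card := by
  intro j
  induction j with
  | zero => simp [seqT]
  | succ j ih =>
    set C := cut D.src D.tgt S with hC
    have h1 := (stepT_spec (D := D) (seqT D j)).2.2 S
    have hmono : inSet D (seqT D j) ⊆ inSet D (seqT D (j + 1)) :=
      inSet_mono (stepT_spec (D := D) (seqT D j)).1
    have hsplit : (inSet D (seqT D (j + 1)) ∩ C).card =
        (inSet D (seqT D j) ∩ C).card + ((inSet D (seqT D (j + 1)) \ inSet D (seqT D j)) ∩ C).card := by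
      rw [← card_union_of_disjoint]
      · congr 1
        ext e
        simp only [mem_inter, mem_union, mem_sdiff]
        constructor
        · rintro ⟨h1, h2⟩
          by_cases h3 : e ∈ inSet D (seqT D j)
          · exact Or.inl ⟨h3, h2⟩
          · exact Or.inr ⟨⟨h1, h3⟩, h2⟩
        · rintro (⟨h1, h2⟩ | ⟨⟨h1, _⟩, h2⟩)
          · exact ⟨hmono h1, h2⟩
          · exact ⟨h1, h2⟩
      · rw [Finset.disjoint_left]
        intro e h1 h2
        exact (mem_sdiff.1 (mem_inter.1 h2).1).2 (mem_inter.1 h1).1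
    have hpow : 1 ≤ (1 + 2 * D.a) ^ (j + 1) := Nat.one_le_pow _ _ (by omega)
    show D.k * (stepT D (seqT D j) ∩ C).card ≤ _
    calc D.k * (stepT D (seqT D j) ∩ C).card
        ≤ (1 + 2 * D.a) * D.k * (seqT D j ∩ C).card +
          64 * D.a ^ 5 * ((inSet D (stepT D (seqT D j)) \ inSet D (seqT D j)) ∩ C).card := h1
      _ = (1 + 2 * D.a) * (D.k * (seqT D j ∩ C).card) +
          64 * D.a ^ 5 * ((inSet D (seqT D (j + 1)) \ inSet D (seqT D j)) ∩ C).card := by
            rw [mul_assoc]; rfl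
      _ ≤ (1 + 2 * D.a) * (64 * D.a ^ 5 * (1 + 2 * D.a) ^ j * (inSet D (seqT D j) ∩ C).card) +
          64 * D.a ^ 5 * (1 + 2 * D.a) ^ (j + 1) *
            ((inSet D (seqT D (j + 1)) \ inSet D (seqT D j)) ∩ C).card := by
            refine add_le_add (Nat.mul_le_mul_left _ ih) (Nat.mul_le_mul_right _ ?_)
            calc 64 * D.a ^ 5 = 64 * D.a ^ 5 * 1 := by ring
              _ ≤ 64 * D.a ^ 5 * (1 + 2 * D.a) ^ (j + 1) := Nat.mul_le_mul_left _ hpow
      _ = 64 * D.a ^ 5 * (1 + 2 * D.a) ^ (j + 1) * (inSet D (seqT D (j + 1)) ∩ C).card := by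
            rw [hsplit]; ring

/-- The connected edge set after `a - 1` rounds satisfies the thinness inequality. -/
lemma final_bound (S : Finset V) :
    D.k * (seqT D (D.a - 1) ∩ cut D.src D.tgt S).card ≤
      64 * D.a ^ 5 * (1 + 2 * D.a) ^ (D.a - 1) * (cut D.src D.tgt S).card := by
  refine (seq_bound S (D.a - 1)).trans (Nat.mul_le_mul_left _ ?_)
  exact card_le_card inter_subset_right

/-- A connected edge set meets every cut. -/
lemma final_cross {S : Finset V} (h1 : S.Nonempty) (h2 : S ≠ univ) :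
    ∃ e ∈ seqT D (D.a - 1), e ∈ cut D.src D.tgt S := by
  obtain ⟨x, hx⟩ := h1
  obtain ⟨y, hy⟩ : ∃ y, y ∉ S := by
    by_contra hcon
    push Not at hcon
    exact h2 (eq_univ_iff_forall.2 hcon)
  obtain ⟨g, hg, hgc, _⟩ := (total_conn (D := D) x y).exists_cross hx hy
  exact ⟨g, hg, hgc⟩

end Vale.Agent.Lib.P061
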