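import Vale.Agent.Lib.P061.Basic

namespace Vale.Agent.Lib.P061

open Classical Finset

variable {V E : Type*} [Fintype V] [Fintype E] {m : ℕ} {D : Data V E m}

/-- The selection of a large class of a bundle: all its edges have their tails `J`-connected and
their heads `J`-connected, where `J` is a set of positions on which both blocks are alive. -/
lemma exists_class (T : Finset E) (X Y : Finset V) (hne : (bundle D T X Y).Nonempty) :
    ∃ (J : Finset (Fin m)) (B : Finset E),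
      B ⊆ bundle D T X Y ∧ B.Nonempty ∧
      (bundle D T X Y).card ≤ 4 * D.a ^ 2 * B.card ∧
      (∀ p ∈ J, (∃ v ∈ X, v ∈ D.bag p) ∧ (∃ v ∈ Y, v ∈ D.bag p)) ∧
      ∀ h ∈ B, ∀ h' ∈ B,
        Conn D (inJ D T J) (D.src h) (D.src h') ∧ Conn D (inJ D T J) (D.tgt h) (D.tgt h') := by
  set B₀ := bundle D T X Y with hB₀
  have hne' : (B₀.image D.pos).Nonempty := hne.image _
  set α := (B₀.image D.pos).min' hne' with hα
  set β := (B₀.image D.pos).max' hne' with hβ
  obtain ⟨h₀, hh₀, hpos₀⟩ : ∃ h₀ ∈ B₀, D.pos h₀ = α := by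
    have := Finset.min'_mem (B₀.image D.pos) hne'
    simpa [hα] using this
  obtain ⟨h₁, hh₁, hpos₁⟩ : ∃ h₁ ∈ B₀, D.pos h₁ = β := by
    have := Finset.max'_mem (B₀.image D.pos) hne'
    simpa [hβ] using this
  have hle : ∀ h ∈ B₀, α ≤ D.pos h ∧ D.pos h ≤ β := fun h hh =>
    ⟨Finset.min'_le _ _ (mem_image_of_mem _ hh), Finset.le_max' _ _ (mem_image_of_mem _ hh)⟩
  set W := D.bag α ∪ D.bag β with hW
  set J := Finset.Icc α β with hJ
  have hsrc : ∀ h ∈ B₀, ∃ w ∈ W, Conn D (inJ D T J) (D.src h) w := by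
    intro h hh
    have hc : Conn D (· ∈ T) (D.src h) (D.src h₀) := by
      rw [← blk_eq_iff, (mem_bundle.1 hh).1, (mem_bundle.1 hh₀).1]
    rcases strand_lemma (hle h hh).1 (hle h hh).2 (D.hs h) hc with h1 | ⟨w, hw, h1⟩
    · refine ⟨D.src h₀, ?_, h1⟩
      rw [hW, mem_union]
      left
      rw [← hpos₀]
      exact D.hs h₀
    · exact ⟨w, mem_union.2 hw, h1⟩
  have htgt : ∀ h ∈ B₀, ∃ w ∈ W, Conn D (inJ D T J) (D.tgt h) w := by
    intro h hh
    have hc : Conn D (· ∈ T) (D.tgt h) (D.tgt h₀) := by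
      rw [← blk_eq_iff, (mem_bundle.1 hh).2, (mem_bundle.1 hh₀).2]
    rcases strand_lemma (hle h hh).1 (hle h hh).2 (D.ht h) hc with h1 | ⟨w, hw, h1⟩
    · refine ⟨D.tgt h₀, ?_, h1⟩
      rw [hW, mem_union]
      left
      rw [← hpos₀]
      exact D.ht h₀
    · exact ⟨w, mem_union.2 hw, h1⟩
  have : Nonempty V := ⟨D.src h₀⟩
  choose! f₁ hf₁ hf₁' using hsrc
  choose! f₂ hf₂ hf₂' using htgt
  set f : E → V × V := fun h => (f₁ h, f₂ h) with hf
  set t := W ×ˢ W with ht
  have hmaps : ∀ h ∈ B₀, f h ∈ t := fun h hh => mem_product.2 ⟨hf₁ h hh, hf₂ h hh⟩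
  have htne : t.Nonempty := ⟨f h₀, hmaps h₀ hh₀⟩
  obtain ⟨y, hy, hmax⟩ := Finset.exists_max_image t (fun b => (B₀.filter fun a => f a = b).card) htne
  have hcard : B₀.card ≤ t.card * (B₀.filter fun a => f a = y).card := by
    rw [Finset.card_eq_sum_card_fiberwise hmaps]
    calc ∑ b ∈ t, (B₀.filter fun a => f a = b).card
        ≤ ∑ _b ∈ t, (B₀.filter fun a => f a = y).card := Finset.sum_le_sum hmax
      _ = _ := by simp
  have hWc : W.card ≤ 2 * D.a := by
    calc W.card ≤ (D.bag α).card + (D.bag β).card := card_union_le _ _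
      _ ≤ D.a + D.a := add_le_add (D.hcard _) (D.hcard _)
      _ = 2 * D.a := by ring
  have htc : t.card ≤ 4 * D.a ^ 2 := by
    rw [ht, card_product]
    calc W.card * W.card ≤ (2 * D.a) * (2 * D.a) := Nat.mul_le_mul hWc hWc
      _ = 4 * D.a ^ 2 := by ring
  have hB₀pos : 0 < B₀.card := hne.card_pos
  refine ⟨J, B₀.filter fun a => f a = y, filter_subset _ _, ?_, ?_, ?_, ?_⟩
  · rw [← Finset.card_pos]
    by_contra hcon
    have : (B₀.filter fun a => f a = y).card = 0 := by omega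
    rw [this, Nat.mul_zero] at hcard
    omega
  · calc B₀.card ≤ t.card * (B₀.filter fun a => f a = y).card := hcard
      _ ≤ _ := Nat.mul_le_mul_right _ htc
  · intro p hp
    obtain ⟨hp1, hp2⟩ := Finset.mem_Icc.1 hp
    constructor
    · have hc : Conn D (· ∈ T) (D.src h₀) (D.src h₁) := by
        rw [← blk_eq_iff, (mem_bundle.1 hh₀).1, (mem_bundle.1 hh₁).1]
      have h0 : D.src h₀ ∈ D.bag α := by rw [← hpos₀]; exact D.hs h₀
      have h1 : D.src h₁ ∈ D.bag β := by rw [← hpos₁]; exact D.hs h₁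
      obtain ⟨w, hw, hwp⟩ := hc.exists_alive_between h0 h1 hp1 hp2
      refine ⟨w, ?_, hwp⟩
      rw [← (mem_bundle.1 hh₀).1]
      exact mem_blk.2 hw
    · have hc : Conn D (· ∈ T) (D.tgt h₀) (D.tgt h₁) := by
        rw [← blk_eq_iff, (mem_bundle.1 hh₀).2, (mem_bundle.1 hh₁).2]
      have h0 : D.tgt h₀ ∈ D.bag α := by rw [← hpos₀]; exact D.ht h₀
      have h1 : D.tgt h₁ ∈ D.bag β := by rw [← hpos₁]; exact D.ht h₁
      obtain ⟨w, hw, hwp⟩ := hc.exists_alive_between h0 h1 hp1 hp2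
      refine ⟨w, ?_, hwp⟩
      rw [← (mem_bundle.1 hh₀).2]
      exact mem_blk.2 hw
  · intro h hh h' hh'
    obtain ⟨hb, hfy⟩ := mem_filter.1 hh
    obtain ⟨hb', hfy'⟩ := mem_filter.1 hh'
    have h1 : f₁ h = f₁ h' := by
      have := hfy.trans hfy'.symm
      exact congrArg Prod.fst this
    have h2 : f₂ h = f₂ h' := by
      have := hfy.trans hfy'.symm
      exact congrArg Prod.snd this
    constructor
    · refine (hf₁' h hb).trans ?_
      rw [h1]
      exact (hf₁' h' hb').symm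
    · refine (hf₂' h hb).trans ?_
      rw [h2]
      exact (hf₂' h' hb').symm

/-- A directed pair of blocks is heavy if it has at least `k / (16 a^3)` edges. -/
def Heavy (D : Data V E m) (T : Finset E) (p : Finset V × Finset V) : Prop :=
  p.1 ≠ p.2 ∧ D.k ≤ 16 * D.a ^ 3 * (bundle D T p.1 p.2).card

/-- Edges with both endpoints in one block. -/
noncomputable def inSet (D : Data V E m) (T : Finset E) : Finset E :=
  univ.filter fun e => Conn D (· ∈ T) (D.src e) (D.tgt e)

lemma mem_inSet {T : Finset E} {e : E} : e ∈ inSet D T ↔ Conn D (· ∈ T) (D.src e) (D.tgt e) := by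
  simp [inSet]

lemma inSet_mono {T T' : Finset E} (h : T ⊆ T') : inSet D T ⊆ inSet D T' := by
  intro e he
  exact mem_inSet.2 (conn_mono_subset h (mem_inSet.1 he))

/-- A crossing along a `J`-connection gives a crossing edge of `T` with position in `J`
in the same block. -/
lemma cross_witness {T : Finset E} {J : Finset (Fin m)} {S : Finset V} {x y : V}
    (hxy : Conn D (inJ D T J) x y) (hdiff : ¬ (x ∈ S ↔ y ∈ S)) :
    ∃ g, g ∈ T ∧ D.pos g ∈ J ∧ g ∈ cut D.src D.tgt S ∧ blk D T (D.src g) = blk D T x := by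
  by_cases hx : x ∈ S
  · have hy : y ∉ S := fun hy => hdiff ⟨fun _ => hy, fun _ => hx⟩
    obtain ⟨g, hg, hgc, hcon⟩ := hxy.exists_cross hx hy
    exact ⟨g, hg.1, hg.2, hgc, (blk_eq_iff.2 hcon.to_T).symm⟩
  · have hy : y ∈ S := by
      by_contra hy
      exact hdiff ⟨fun h => absurd h hx, fun h => absurd h hy⟩
    obtain ⟨g, hg, hgc, hcon⟩ := hxy.symm.exists_cross hy hx
    refine ⟨g, hg.1, hg.2, hgc, ?_⟩
    exact (blk_eq_iff.2 (hxy.to_T.trans hcon.to_T)).symm

/-- One round of merging. -/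
lemma exists_step (T : Finset E) :
    ∃ T', T ⊆ T' ∧ (∀ p, Heavy D T p → ∀ u ∈ p.1, ∀ v ∈ p.2, Conn D (· ∈ T') u v) ∧
      ∀ S : Finset V, D.k * (T' ∩ cut D.src D.tgt S).card ≤
        (1 + 2 * D.a) * D.k * (T ∩ cut D.src D.tgt S).card +
          64 * D.a ^ 5 * ((inSet D T' \ inSet D T) ∩ cut D.src D.tgt S).card := by
  have data : ∀ p : Finset V × Finset V, ∃ (J : Finset (Fin m)) (B R : Finset E),
      (Heavy D T p → B ⊆ bundle D T p.1 p.2 ∧
        (bundle D T p.1 p.2).card ≤ 4 * D.a ^ 2 * B.card ∧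
        (∀ q ∈ J, (∃ v ∈ p.1, v ∈ D.bag q) ∧ (∃ v ∈ p.2, v ∈ D.bag q)) ∧
        (∀ h ∈ B, ∀ h' ∈ B,
          Conn D (inJ D T J) (D.src h) (D.src h') ∧ Conn D (inJ D T J) (D.tgt h) (D.tgt h')) ∧
        R ⊆ B ∧ R.Nonempty ∧ R.card ≤ 1) ∧
      (¬ Heavy D T p → R = ∅) := by
    intro p
    by_cases hp : Heavy D T p
    · have hne : (bundle D T p.1 p.2).Nonempty := by
        rw [← Finset.card_pos]
        by_contra hcon
        have h0 : (bundle D T p.1 p.2).card = 0 := by omega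
        have := hp.2
        rw [h0] at this
        have := D.hk
        omega
      obtain ⟨J, B, h1, h2, h3, h4, h5⟩ := exists_class T p.1 p.2 hne
      obtain ⟨e, he⟩ := h2
      exact ⟨J, B, {e}, fun _ => ⟨h1, h3, h4, h5, by simpa using he, by simp, by simp⟩,
        fun hn => absurd hp hn⟩
    · exact ⟨∅, ∅, ∅, fun h => absurd h hp, fun _ => rfl⟩
  choose J B R hd hd' using data
  set T' := T ∪ univ.biUnion R with hT'
  have hTT' : T ⊆ T' := subset_union_left
  have hRT' : ∀ p, R p ⊆ T' := fun p => by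
    intro e he
    exact mem_union_right _ (mem_biUnion.2 ⟨p, mem_univ _, he⟩)
  have hconnT' : ∀ p, Heavy D T p → ∀ u ∈ p.1, ∀ v ∈ p.2, Conn D (· ∈ T') u v := by
    intro p hp u hu v hv
    obtain ⟨hB, _, _, _, hRB, ⟨e, he⟩, _⟩ := hd p hp
    obtain ⟨h1, h2⟩ := mem_bundle.1 (hB (hRB he))
    have hu' : u ∈ blk D T (D.src e) := by rw [h1]; exact hu
    have hv' : v ∈ blk D T (D.tgt e) := by rw [h2]; exact hv
    have c1 : Conn D (· ∈ T') u (D.src e) := conn_mono_subset hTT' (mem_blk.1 hu').symm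
    have c2 : Conn D (· ∈ T') (D.src e) (D.tgt e) := conn_of_edge (hRT' p he)
    have c3 : Conn D (· ∈ T') (D.tgt e) v := conn_mono_subset hTT' (mem_blk.1 hv')
    exact c1.trans (c2.trans c3)
  refine ⟨T', hTT', hconnT', ?_⟩
  intro S
  set C := cut D.src D.tgt S with hC
  set H := (univ : Finset (Finset V × Finset V)).filter (Heavy D T) with hH
  set RR := H.filter (fun p => ∃ e ∈ R p, e ∈ C) with hRR
  set CC := RR.filter (fun p => B p ⊆ C) with hCC
  set UU := RR.filter (fun p => ¬ B p ⊆ C) with hUU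
  -- step 1
  have h1 : (T' ∩ C).card ≤ (T ∩ C).card + RR.card := by
    have hsub : T' ∩ C ⊆ (T ∩ C) ∪ RR.biUnion R := by
      intro e he
      obtain ⟨he1, he2⟩ := mem_inter.1 he
      rcases mem_union.1 he1 with he3 | he3
      · exact mem_union_left _ (mem_inter.2 ⟨he3, he2⟩)
      · obtain ⟨p, _, hp⟩ := mem_biUnion.1 he3
        have hpH : Heavy D T p := by
          by_contra hn
          rw [hd' p hn] at hp
          simp at hp
        refine mem_union_right _ (mem_biUnion.2 ⟨p, ?_, hp⟩)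
        exact mem_filter.2 ⟨mem_filter.2 ⟨mem_univ _, hpH⟩, e, hp, he2⟩
    calc (T' ∩ C).card ≤ ((T ∩ C) ∪ RR.biUnion R).card := card_le_card hsub
      _ ≤ (T ∩ C).card + (RR.biUnion R).card := card_union_le _ _
      _ ≤ (T ∩ C).card + RR.card := by
        refine Nat.add_le_add_left ?_ _
        calc (RR.biUnion R).card ≤ ∑ p ∈ RR, (R p).card := card_biUnion_le
          _ ≤ ∑ _p ∈ RR, 1 := by
            refine Finset.sum_le_sum ?_
            intro p hp
            have hpH : Heavy D T p := (mem_filter.1 (mem_filter.1 hp).1).2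
            exact (hd p hpH).2.2.2.2.2.2
          _ = RR.card := by simp
  -- step 2
  have h2 : RR.card = CC.card + UU.card := (Finset.card_filter_add_card_filter_not _).symm
  -- step 3: the charged pairs
  have h3 : D.k * CC.card ≤ 64 * D.a ^ 5 * ((inSet D T' \ inSet D T) ∩ C).card := by
    have hHeavy : ∀ p ∈ CC, Heavy D T p := fun p hp =>
      (mem_filter.1 (mem_filter.1 (mem_filter.1 hp).1).1).2
    have hdisj : ((CC : Finset (Finset V × Finset V)) : Set (Finset V × Finset V)).PairwiseDisjoint B := by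
      intro p hp q hq hpq
      simp only [Function.onFun]
      rw [Finset.disjoint_left]
      intro h hh hh'
      have hp' := hHeavy p hp
      have hq' := hHeavy q hq
      obtain ⟨a1, a2⟩ := mem_bundle.1 ((hd p hp').1 hh)
      obtain ⟨b1, b2⟩ := mem_bundle.1 ((hd q hq').1 hh')
      apply hpq
      exact Prod.ext (a1.symm.trans b1) (a2.symm.trans b2)
    have hsub : CC.biUnion B ⊆ (inSet D T' \ inSet D T) ∩ C := by
      intro h hh
      obtain ⟨p, hp, hhp⟩ := mem_biUnion.1 hh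
      have hpH := hHeavy p hp
      obtain ⟨a1, a2⟩ := mem_bundle.1 ((hd p hpH).1 hhp)
      have hCp : B p ⊆ C := (mem_filter.1 hp).2
      refine mem_inter.2 ⟨mem_sdiff.2 ⟨?_, ?_⟩, hCp hhp⟩
      · refine mem_inSet.2 (hconnT' p hpH _ ?_ _ ?_)
        · rw [← a1]; exact self_mem_blk _
        · rw [← a2]; exact self_mem_blk _
      · intro hin
        apply hpH.1
        rw [← a1, ← a2]
        exact blk_eq_iff.2 (mem_inSet.1 hin)
    calc D.k * CC.card = ∑ _p ∈ CC, D.k := by simp [mul_comm]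
      _ ≤ ∑ p ∈ CC, 64 * D.a ^ 5 * (B p).card := by
        refine Finset.sum_le_sum ?_
        intro p hp
        have hpH := hHeavy p hp
        have h4 := (hd p hpH).2.1
        calc D.k ≤ 16 * D.a ^ 3 * (bundle D T p.1 p.2).card := hpH.2
          _ ≤ 16 * D.a ^ 3 * (4 * D.a ^ 2 * (B p).card) := Nat.mul_le_mul_left _ h4
          _ = _ := by ring
      _ = 64 * D.a ^ 5 * ∑ p ∈ CC, (B p).card := by rw [Finset.mul_sum]
      _ = 64 * D.a ^ 5 * (CC.biUnion B).card := by rw [card_biUnion hdisj]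
      _ ≤ _ := Nat.mul_le_mul_left _ (card_le_card hsub)
  -- step 4: uncharged pairs
  have h4 : UU.card ≤ 2 * D.a * (T ∩ C).card := by
    rcases UU.eq_empty_or_nonempty with hU | hU
    · simp [hU]
    have hHeavy : ∀ p ∈ UU, Heavy D T p := fun p hp =>
      (mem_filter.1 (mem_filter.1 (mem_filter.1 hp).1).1).2
    have hwit : ∀ p ∈ UU, ∃ g, g ∈ T ∩ C ∧ D.pos g ∈ J p ∧
        (blk D T (D.src g) = p.1 ∨ blk D T (D.src g) = p.2) := by
      intro p hp
      have hpH := hHeavy p hp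
      obtain ⟨hB, _, _, hconnJ, hRB, _, _⟩ := hd p hpH
      obtain ⟨hpRR, hnB⟩ := mem_filter.1 hp
      obtain ⟨_, e, heR, heC⟩ := mem_filter.1 hpRR
      obtain ⟨h, hhB, hhC⟩ := Finset.not_subset.1 hnB
      have heB := hRB heR
      obtain ⟨ce1, ce2⟩ := hconnJ e heB h hhB
      obtain ⟨a1, a2⟩ := mem_bundle.1 (hB heB)
      by_cases hdiff : D.src e ∈ S ↔ D.src h ∈ S
      · have hdiff2 : ¬ (D.tgt e ∈ S ↔ D.tgt h ∈ S) := by
          intro hd2
          apply hhC
          simp only [hC, cut, mem_filter, mem_univ, true_and] at heC ⊢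
          rcases heC with ⟨x1, x2⟩ | ⟨x1, x2⟩
          · left
            exact ⟨hdiff.1 x1, fun y => x2 (hd2.2 y)⟩
          · right
            exact ⟨fun y => x1 (hdiff.2 y), hd2.1 x2⟩
        obtain ⟨g, hg1, hg2, hg3, hg4⟩ := cross_witness ce2 hdiff2
        exact ⟨g, mem_inter.2 ⟨hg1, hg3⟩, hg2, Or.inr (hg4.trans a2)⟩
      · obtain ⟨g, hg1, hg2, hg3, hg4⟩ := cross_witness ce1 hdiff
        exact ⟨g, mem_inter.2 ⟨hg1, hg3⟩, hg2, Or.inl (hg4.trans a1)⟩
    obtain ⟨p₀, hp₀⟩ := hU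
    obtain ⟨g₀, _⟩ := hwit p₀ hp₀
    have : Nonempty E := ⟨g₀⟩
    choose! ψ hψ1 hψ2 hψ3 using hwit
    refine Finset.card_le_mul_card_image_of_maps_to hψ1 (2 * D.a) ?_
    intro g hg
    set Z := blk D T (D.src g) with hZ
    set P := (D.bag (D.pos g)).image (blk D T) with hP
    have hPc : P.card ≤ D.a := card_image_le.trans (D.hcard _)
    have hsub : UU.filter (fun p => ψ p = g) ⊆ ({Z} ×ˢ P) ∪ (P ×ˢ {Z}) := by
      intro p hp
      obtain ⟨hpU, hpg⟩ := mem_filter.1 hp
      have hpH := hHeavy p hpU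
      have hposg : D.pos g ∈ J p := by rw [← hpg]; exact hψ2 p hpU
      obtain ⟨hB, _, halive, _, hRB, ⟨e, he⟩, _⟩ := hd p hpH
      obtain ⟨a1, a2⟩ := mem_bundle.1 (hB (hRB he))
      obtain ⟨⟨v1, hv1, hv1b⟩, ⟨v2, hv2, hv2b⟩⟩ := halive _ hposg
      have hb1 : blk D T v1 = p.1 := by
        rw [← a1] at hv1 ⊢
        exact blk_eq_of_mem hv1
      have hb2 : blk D T v2 = p.2 := by
        rw [← a2] at hv2 ⊢
        exact blk_eq_of_mem hv2
      rcases hψ3 p hpU with hz | hz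
      · refine mem_union_left _ (mem_product.2 ⟨?_, ?_⟩)
        · rw [mem_singleton, hZ, ← hz, hpg]
        · exact mem_image.2 ⟨v2, hv2b, hb2⟩
      · refine mem_union_right _ (mem_product.2 ⟨?_, ?_⟩)
        · exact mem_image.2 ⟨v1, hv1b, hb1⟩
        · rw [mem_singleton, hZ, ← hz, hpg]
    calc (UU.filter (fun p => ψ p = g)).card ≤ (({Z} ×ˢ P) ∪ (P ×ˢ {Z})).card := card_le_card hsub
      _ ≤ ({Z} ×ˢ P).card + (P ×ˢ {Z}).card := card_union_le _ _
      _ = P.card + P.card := by simp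
      _ ≤ 2 * D.a := by omega
  calc D.k * (T' ∩ C).card ≤ D.k * ((T ∩ C).card + (CC.card + UU.card)) := by
        rw [← h2]; exact Nat.mul_le_mul_left _ h1
    _ = D.k * (T ∩ C).card + D.k * CC.card + D.k * UU.card := by ring
    _ ≤ D.k * (T ∩ C).card + 64 * D.a ^ 5 * ((inSet D T' \ inSet D T) ∩ C).card +
          D.k * (2 * D.a * (T ∩ C).card) := by
        refine add_le_add (add_le_add le_rfl h3) (Nat.mul_le_mul_left _ h4)
    _ = _ := by ring

end Vale.Agent.Lib.P061
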